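import Vale.Agent.Lib.P074b.Main
import Vale.Agent.Lib.P074q.Main

/-!
# P074: the stability exponent lies between `1/4` and `1/3`

For every dimension `d ≥ 2` the exponent `1/4` is admissible, and no exponent above `1/3` is.

Lower bound: both optimal maps have tight pairs of Kantorovich potentials; the two duality gaps
are controlled by `W₁` of the targets, a gap controls the difference of the maps up to a second
difference of a Lipschitz convex potential, and second differences at scale `r` integrate to
`O(r ^ 2)`.  Upper bound: two-atom targets on the unit cube whose small cells are thin triangles.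
-/

open MeasureTheory ENNReal
open scoped NNReal

namespace Vale.Agent.Results.P074.AQuarterToThird

open Vale.Agent.Lib.P074b

theorem result :
    ∀ d : ℕ, 2 ≤ d →
      Admissible d (1 / 4) ∧
      (∀ α : ℝ, Admissible d α → α ≤ 1 / 3) ∧
      1 / 4 ≤ sSup {α : ℝ | Admissible d α} ∧
      sSup {α : ℝ | Admissible d α} ≤ 1 / 3 := by
  intro d hd
  have hq : Admissible d (1 / 4) := Vale.Agent.Lib.P074q.admissible_quarter d
  have hbdd : BddAbove {α : ℝ | Admissible d α} := ⟨1 / 3, fun α h => admissible_le hd h⟩
  exact ⟨hq, fun α h => admissible_le hd h, le_csSup hbdd hq,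
    csSup_le ⟨1 / 4, hq⟩ (fun α h => admissible_le hd h)⟩

end Vale.Agent.Results.P074.AQuarterToThird
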