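import Vale.Agent.Lib.P074c.Main
import Vale.Agent.Lib.P074q.Main

/-!
# P074: the sharp stability exponent against `W₁` is `1/4`, and it is attained

For every dimension `d ≥ 2` the largest exponent `α` for which
`‖T_μ - T_ν‖_{L²(ρ)} ≤ C W₁(μ,ν)^α` holds uniformly is exactly `1/4`.
-/

open MeasureTheory ENNReal
open scoped NNReal

namespace Vale.Agent.Results.P074.ASharpExponentW1

open Vale.Agent.Lib.P074c

theorem result :
    ∀ d : ℕ, 2 ≤ d → IsGreatest {α : ℝ | Admissible d 1 α} (1 / 4) := by
  intro d hd
  refine ⟨Vale.Agent.Lib.P074q.admissible_W1_quarter d, ?_⟩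
  intro α h
  have h1 := admissible_le hd (by norm_num) h
  norm_num at h1
  linarith

end Vale.Agent.Results.P074.ASharpExponentW1
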