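import Vale.Agent.Lib.P074q.Main
import Vale.Agent.Lib.P074q.Easy

/-!
# P074: Hölder-`1/4` stability of Brenier maps against `W₁`

Maps that push the uniform measure on `K` to measures on `Y` and are almost everywhere
subgradients on `K` of some function are quadratic optimal transport maps, and they satisfy
`‖T - S‖_{L²(ρ)} ≤ C W₁(μ,ν)^{1/4}` with `C` depending only on `K` and `Y`.
-/

open MeasureTheory ENNReal
open scoped NNReal RealInnerProductSpace

namespace Vale.Agent.Results.P074.ASubgradientStability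

open Vale.Agent.Lib.P074c

theorem result :
    ∀ (d : ℕ) (K : Set (E d)), IsCompact K → (interior K).Nonempty →
    ∀ Y : Set (E d), IsCompact Y → Y.Nonempty →
      (∀ (μ : Measure (E d)) (T : E d → E d), (∀ᵐ y ∂μ, y ∈ Y) → Measurable T →
        (unif K).map T = μ →
        (∃ φ : E d → ℝ, ∀ᵐ x ∂(unif K), ∀ z ∈ K, φ x + ⟪T x, z - x⟫ ≤ φ z) →
        IsOTMap (unif K) μ T) ∧
      ∃ C : ℝ≥0, ∀ μ ν : Measure (E d), IsProbabilityMeasure μ → IsProbabilityMeasure ν →
        (∀ᵐ y ∂μ, y ∈ Y) → (∀ᵐ y ∂ν, y ∈ Y) →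
        ∀ T S : E d → E d, Measurable T → Measurable S →
          (unif K).map T = μ → (unif K).map S = ν →
          (∃ φ : E d → ℝ, ∀ᵐ x ∂(unif K), ∀ z ∈ K, φ x + ⟪T x, z - x⟫ ≤ φ z) →
          (∃ ψ : E d → ℝ, ∀ᵐ x ∂(unif K), ∀ z ∈ K, ψ x + ⟪S x, z - x⟫ ≤ ψ z) →
          eLpNorm (fun x => T x - S x) 2 (unif K) ≤ C * Wass 1 μ ν ^ (1 / 4 : ℝ) := by
  intro d K hK hKi Y hY hYne
  refine ⟨?_, Vale.Agent.Lib.P074q.stability_of_subgradient_maps d K hK hKi Y hY hYne⟩
  intro μ T hμY hT hmap hφ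
  obtain ⟨φ, hφ⟩ := hφ
  exact Vale.Agent.Lib.P074q.isOTMap_of_subgrad hK
    (Measure.measure_pos_of_nonempty_interior volume hKi).ne' hY μ hμY T hT hmap φ hφ

end Vale.Agent.Results.P074.ASubgradientStability
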