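import Vale.Agent.Lib.P074b.Main

/-!
# P074: no stability exponent above `1/3` is admissible

For every dimension `d ≥ 2`, every admissible exponent is at most `1/3`.  In particular the
exponent `1/2` is not admissible and the supremum of the admissible exponents is at most `1/3`.

The witnesses: `K` is the unit cube, the targets are `(1 - m) δ_0 + m δ_b` with
`b = e₁ ± t e₀`; the cell of the small atom is a thin triangle along the face `x₁ = 1`.
The two maps differ by a vector of norm at least one on a set of measure `t / 8`,
while the squared Wasserstein distance of the targets is at most `4 t ^ 3`.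
-/

open MeasureTheory ENNReal
open scoped NNReal

namespace Vale.Agent.Results.P074.ExponentAtMostOneThird

open Vale.Agent.Lib.P074b

theorem result :
    ∀ d : ℕ, 2 ≤ d →
      (∀ α : ℝ, Admissible d α → α ≤ 1 / 3) ∧
      ¬ Admissible d (1 / 2) ∧
      sSup {α : ℝ | Admissible d α} ≤ 1 / 3 := by
  intro d hd
  refine ⟨fun α h => admissible_le hd h, fun h => ?_, ?_⟩
  · have := admissible_le hd h
    norm_num at this
  · apply Real.sSup_le
    · intro α h
      exact admissible_le hd h
    · norm_num

end Vale.Agent.Results.P074.ExponentAtMostOneThird
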