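import Vale.Agent.Lib.P074L.Final

open Vale.Agent.Lib.P074L

namespace Vale.Agent.Results.P074.ExponentLeOneThird

/-- In every dimension `d ≥ 2` no exponent `α > 1/3` is admissible (the obstruction is the unit
cube with two-atom targets whose small atom has a thin cell along a flat face).  In particular
`α = 1/2` is not admissible and the supremum of the admissible exponents is at most `1/3`. -/
theorem result (d : ℕ) (hd : 2 ≤ d) :
    (∀ α : ℝ, 1 / 3 < α → ¬ Admissible d α) ∧ ¬ Admissible d (1 / 2) ∧
      sSup {α : ℝ | 0 < α ∧ α ≤ 1 ∧ Admissible d α} ≤ 1 / 3 := by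
  have h : ∀ α : ℝ, 1 / 3 < α → ¬ Admissible d α := fun α hα => not_admissible d hd α hα
  refine ⟨h, h _ (by norm_num), ?_⟩
  apply Real.sSup_le
  · intro α hα
    by_contra hlt
    exact h α (not_le.mp hlt) hα.2.2
  · norm_num

end Vale.Agent.Results.P074.ExponentLeOneThird
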