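import Vale.Agent.Lib.P074c.Main

/-!
# P074: stability exponents against `W_p` are at most `p / (2 (p + 1))`

For every dimension `d ≥ 2` and every order `p ≥ 1`, a uniform bound
`‖T_μ - T_ν‖_{L²(ρ)} ≤ C W_p(μ,ν)^α` forces `α ≤ p / (2 (p + 1))`.
For `p = 2` this is `α ≤ 1/3`, for `p = 1` it is `α ≤ 1/4`.
-/

open MeasureTheory ENNReal
open scoped NNReal

namespace Vale.Agent.Results.P074.WassersteinOrderP

open Vale.Agent.Lib.P074c

theorem result :
    ∀ d : ℕ, 2 ≤ d →
      (∀ p α : ℝ, 1 ≤ p → Admissible d p α → α ≤ p / (2 * (p + 1))) ∧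
      (∀ α : ℝ, Admissible d 2 α → α ≤ 1 / 3) ∧
      (∀ α : ℝ, Admissible d 1 α → α ≤ 1 / 4) ∧
      ¬ Admissible d 2 (1 / 2) := by
  intro d hd
  have h2 : ∀ α : ℝ, Admissible d 2 α → α ≤ 1 / 3 := by
    intro α h
    have := admissible_le hd (by norm_num) h
    norm_num at this
    linarith
  refine ⟨fun p α hp h => admissible_le hd (by linarith) h, h2, ?_, ?_⟩
  · intro α h
    have := admissible_le hd (by norm_num) h
    norm_num at this
    linarith
  · intro h
    have := h2 _ h
    norm_num at this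

end Vale.Agent.Results.P074.WassersteinOrderP
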